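import Vale.Agent.P235.R2.AP.Law
import Vale.Agent.P235.R2.H494.Mini

/-!
# P235, AP: assembly

Conditional statement: if every bipartite unit plane graph has a law of configurations with large
mean norm on the marked vertices, then all plane graphs with arbitrary lengths embed into `L_1`.
-/

namespace Vale.Agent.P235.AP

/-- laws of configurations with constant `c m` for `m` marked vertices -/
def Laws (c : ℕ → ℝ) : Prop :=
  ∀ (V : Type) [Finite V] (G : SimpleGraph V) (σ : Equiv.Perm G.Dart) (r : V) (S : Set V),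
    G.Connected → PlaneMap G σ → UnitH G (fun v => (G.dist r v : ℤ)) → r ∈ S →
    (∀ v, Nat.card (G.neighborSet v) ≠ 2 → v ∈ S) →
    ∃ (ι : Type) (_ : Finite ι) (p : ι → ℝ)
      (π : ι → Equiv.Perm (Up G (fun v => (G.dist r v : ℤ)))),
      (∀ i, 0 ≤ p i) ∧ ∑ᶠ i, p i = 1 ∧ (∀ i, Conf σ (fun v => (G.dist r v : ℤ)) (π i)) ∧
      ∀ x ∈ S, ∀ y ∈ S, c (Nat.card S) * G.dist x y ≤ ∑ᶠ i, p i * NN (π i) x y

/-- the same with simple configurations -/
def LawsSimp (c : ℕ → ℝ) : Prop :=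
  ∀ (V : Type) [Finite V] (G : SimpleGraph V) (σ : Equiv.Perm G.Dart) (r : V) (S : Set V),
    G.Connected → PlaneMap G σ → UnitH G (fun v => (G.dist r v : ℤ)) → r ∈ S →
    (∀ v, Nat.card (G.neighborSet v) ≠ 2 → v ∈ S) →
    ∃ (ι : Type) (_ : Finite ι) (p : ι → ℝ)
      (π : ι → Equiv.Perm (Up G (fun v => (G.dist r v : ℤ)))),
      (∀ i, 0 ≤ p i) ∧ ∑ᶠ i, p i = 1 ∧ (∀ i, Conf σ (fun v => (G.dist r v : ℤ)) (π i)) ∧
      (∀ i, Simp σ (π i)) ∧
      ∀ x ∈ S, ∀ y ∈ S, c (Nat.card S) * G.dist x y ≤ ∑ᶠ i, p i * NN (π i) x y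

theorem embeds_of_laws (hN : RowNorm) (hR : RowRound) {c : ℕ → ℝ} (hc : ∀ m, 0 < c m)
    (hL : Laws c) (V : Type) [Finite V] (G : SimpleGraph V) (σ : Equiv.Perm G.Dart)
    (ℓ : Sym2 V → ℝ) (hG : G.Connected) (hP : PlaneMap G σ) (hℓ : ∀ e ∈ G.edgeSet, 0 < ℓ e) :
    EmbedsL1 (pathDist G ℓ) (2 * (1 / c (Nat.card V))) := by
  refine hR (fun m => 1 / c m) ?_ V G σ ℓ hG hP hℓ
  intro V _ G σ r S hG hP hu hr hS
  obtain ⟨ι, _, p, π, h1, h2, h3, h4⟩ := hL V G σ r S hG hP hu hr hS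
  exact law_marked hN σ _ p π S hG hP hu (hc _) h1 h2 h3 h4

/-- A law can be replaced by a law of simple configurations. -/
theorem lawsSimp_of_laws (hE : RowEnd) {c : ℕ → ℝ} (hL : Laws c) : LawsSimp c := by
  intro V _ G σ r S hG hP hu hr hS
  obtain ⟨ι, hι, p, π, h1, h2, h3, h4⟩ := hL V G σ r S hG hP hu hr hS
  choose π' ha hb hc' using fun i => hE V G σ _ (π i) hG hP hu (h3 i)
  refine ⟨ι, hι, p, π', h1, h2, ha, hb, fun x hx y hy => (h4 x hx y hy).trans ?_⟩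
  have := Fintype.ofFinite ι
  rw [finsum_eq_sum_of_fintype, finsum_eq_sum_of_fintype]
  exact Finset.sum_le_sum fun i _ => mul_le_mul_of_nonneg_left (hc' i x y) (h1 i)

/-- one configuration for every weight, with constant `c m` for `m` marked vertices -/
def Duals (c : ℕ → ℝ) : Prop :=
  ∀ (V : Type) [Finite V] (G : SimpleGraph V) (σ : Equiv.Perm G.Dart) (r : V) (S : Set V),
    G.Connected → PlaneMap G σ → UnitH G (fun v => (G.dist r v : ℤ)) → r ∈ S →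
    (∀ v, Nat.card (G.neighborSet v) ≠ 2 → v ∈ S) →
    ∀ D : V → V → ℝ, (∀ x y, 0 ≤ D x y) → (∀ x y, x ∉ S ∨ y ∉ S → D x y = 0) →
      ∃ π : Equiv.Perm (Up G (fun v => (G.dist r v : ℤ))),
        Conf σ (fun v => (G.dist r v : ℤ)) π ∧
        c (Nat.card S) * ∑ᶠ x, ∑ᶠ y, D x y * G.dist x y ≤ ∑ᶠ x, ∑ᶠ y, D x y * NN π x y

theorem laws_of_duals {c : ℕ → ℝ} (hD : Duals c) : Laws c := by
  intro V _ G σ r S hG hP hu hr hS
  exact rowMinimax V G σ _ S (c (Nat.card S)) fun D h1 h2 => hD V G σ r S hG hP hu hr hS D h1 h2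

theorem embeds_of_duals (hN : RowNorm) (hR : RowRound) {c : ℕ → ℝ} (hc : ∀ m, 0 < c m)
    (hD : Duals c) (V : Type) [Finite V] (G : SimpleGraph V) (σ : Equiv.Perm G.Dart)
    (ℓ : Sym2 V → ℝ) (hG : G.Connected) (hP : PlaneMap G σ) (hℓ : ∀ e ∈ G.edgeSet, 0 < ℓ e) :
    EmbedsL1 (pathDist G ℓ) (2 * (1 / c (Nat.card V))) :=
  embeds_of_laws hN hR hc (laws_of_duals hD) V G σ ℓ hG hP hℓ

end Vale.Agent.P235.AP
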